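import Vale.Agent.Lib.P018.Defs

open Polynomial

namespace Vale.Agent.Lib.P018

/-- number of elements of a periodic set in `m` full periods -/
theorem card_Ico_periodic (q : ℕ) (P : ℕ → Prop) [DecidablePred P] (hP : Function.Periodic P q)
    (m : ℕ) : ((Finset.Ico 1 (1 + m * q)).filter P).card = m * ((Finset.range q).filter P).card := by
  induction m with
  | zero => simp
  | succ m ih =>
    have hsplit : Finset.Ico 1 (1 + (m + 1) * q) =
        Finset.Ico 1 (1 + m * q) ∪ Finset.Ico (1 + m * q) (1 + m * q + q) := by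
      rw [Finset.Ico_union_Ico_eq_Ico (by omega) (by omega)]
      congr 1; ring
    have hdisj : Disjoint (Finset.Ico 1 (1 + m * q)) (Finset.Ico (1 + m * q) (1 + m * q + q)) :=
      Finset.Ico_disjoint_Ico_consecutive _ _ _
    rw [hsplit, Finset.filter_union, Finset.card_union_of_disjoint
      (Finset.disjoint_filter_filter hdisj), ih, Nat.filter_Ico_card_eq_of_periodic _ _ _ hP,
      Nat.count_eq_card_filter_range]
    ring

theorem card_Icc_periodic_bounds (q : ℕ) (hq : 0 < q) (P : ℕ → Prop) [DecidablePred P]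
    (hP : Function.Periodic P q) (X : ℕ) :
    (X / q) * ((Finset.range q).filter P).card ≤ ((Finset.Icc 1 X).filter P).card ∧
    ((Finset.Icc 1 X).filter P).card ≤ (X / q + 1) * ((Finset.range q).filter P).card := by
  have h1 : X / q * q ≤ X := Nat.div_mul_le_self X q
  have h2 : X < (X / q + 1) * q := by
    have := Nat.lt_div_mul_add (a := X) hq
    linarith [this, Nat.add_mul (X / q) 1 q]
  constructor
  · rw [← card_Ico_periodic q P hP]
    apply Finset.card_le_card
    apply Finset.filter_subset_filter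
    intro x hx
    rw [Finset.mem_Ico] at hx
    rw [Finset.mem_Icc]
    omega
  · rw [← card_Ico_periodic q P hP]
    apply Finset.card_le_card
    apply Finset.filter_subset_filter
    intro x hx
    rw [Finset.mem_Icc] at hx
    rw [Finset.mem_Ico]
    omega

/-- real form: the count differs from `X * N / q` by at most `q` -/
theorem card_Icc_periodic_real (q : ℕ) (hq : 0 < q) (P : ℕ → Prop) [DecidablePred P]
    (hP : Function.Periodic P q) (X : ℕ) :
    |(((Finset.Icc 1 X).filter P).card : ℝ) -
      (X : ℝ) * ((((Finset.range q).filter P).card : ℝ) / q)| ≤ q := by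
  obtain ⟨h1, h2⟩ := card_Icc_periodic_bounds q hq P hP X
  set N := ((Finset.range q).filter P).card with hN
  set c := ((Finset.Icc 1 X).filter P).card with hc
  have hNq : N ≤ q := by
    rw [hN]; exact (Finset.card_filter_le _ _).trans (by simp)
  have hq' : (0 : ℝ) < q := by exact_mod_cast hq
  have hdm : (X : ℝ) = (X / q : ℕ) * q + (X % q : ℕ) := by
    have := Nat.div_add_mod' X q
    exact_mod_cast this.symm
  have hmod : ((X % q : ℕ) : ℝ) < q := by exact_mod_cast Nat.mod_lt X hq
  have hmod0 : (0 : ℝ) ≤ ((X % q : ℕ) : ℝ) := by positivity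
  have h1' : ((X / q : ℕ) : ℝ) * N ≤ c := by exact_mod_cast h1
  have h2' : (c : ℝ) ≤ (((X / q : ℕ) : ℝ) + 1) * N := by exact_mod_cast h2
  have hNq' : (N : ℝ) ≤ q := by exact_mod_cast hNq
  have hN0 : (0 : ℝ) ≤ N := by positivity
  have e : (X : ℝ) * ((N : ℝ) / q) = ((X / q : ℕ) : ℝ) * N + ((X % q : ℕ) : ℝ) * N / q := by
    rw [hdm]; field_simp
  have h3 : ((X % q : ℕ) : ℝ) * N / q ≤ N := by
    rw [div_le_iff₀ hq']
    nlinarith
  have h4 : 0 ≤ ((X % q : ℕ) : ℝ) * N / q := by positivity
  rw [e, abs_le]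
  constructor <;> nlinarith

/-- Chinese remainder theorem for counting -/
theorem card_filter_mul {m n : ℕ} (hm : m ≠ 0) (hn : n ≠ 0) (co : m.Coprime n) (A B : ℕ → Prop)
    [DecidablePred A] [DecidablePred B]
    (hA : Function.Periodic A m) (hB : Function.Periodic B n) :
    ((Finset.range (m * n)).filter (fun x => A x ∧ B x)).card =
      ((Finset.range m).filter A).card * ((Finset.range n).filter B).card := by
  rw [← Finset.card_product]
  apply Finset.card_nbij' (fun x => (x % m, x % n))
    (fun ab => (Nat.chineseRemainder co ab.1 ab.2 : ℕ))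
  · intro x hx
    simp only [Finset.coe_filter, Finset.mem_range, Set.mem_ofPred_eq] at hx
    simp only [Finset.coe_product, Finset.coe_filter, Finset.mem_range, Set.mem_prod,
      Set.mem_ofPred_eq]
    refine ⟨⟨Nat.mod_lt _ (Nat.pos_of_ne_zero hm), ?_⟩, ⟨Nat.mod_lt _ (Nat.pos_of_ne_zero hn), ?_⟩⟩
    · rw [hA.map_mod_nat]; exact hx.2.1
    · rw [hB.map_mod_nat]; exact hx.2.2
  · rintro ⟨a, b⟩ hab
    simp only [Finset.coe_product, Finset.coe_filter, Finset.mem_range, Set.mem_prod,
      Set.mem_ofPred_eq] at hab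
    simp only [Finset.coe_filter, Finset.mem_range, Set.mem_ofPred_eq]
    obtain ⟨⟨ha, hAa⟩, ⟨hb, hBb⟩⟩ := hab
    have h := (Nat.chineseRemainder co a b).2
    refine ⟨Nat.chineseRemainder_lt_mul co a b hm hn, ?_, ?_⟩
    · rw [← hA.map_mod_nat, h.1, Nat.mod_eq_of_lt ha]; exact hAa
    · rw [← hB.map_mod_nat, h.2, Nat.mod_eq_of_lt hb]; exact hBb
  · intro x hx
    simp only [Finset.coe_filter, Finset.mem_range, Set.mem_ofPred_eq] at hx
    have h := Nat.chineseRemainder_modEq_unique co (a := x % m) (b := x % n) (z := x)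
      (Nat.mod_mod _ _).symm (Nat.mod_mod _ _).symm
    exact (Nat.ModEq.eq_of_lt_of_lt h hx.1 (Nat.chineseRemainder_lt_mul co _ _ hm hn)).symm
  · rintro ⟨a, b⟩ hab
    simp only [Finset.coe_product, Finset.coe_filter, Finset.mem_range, Set.mem_prod,
      Set.mem_ofPred_eq] at hab
    obtain ⟨⟨ha, _⟩, ⟨hb, _⟩⟩ := hab
    have h := (Nat.chineseRemainder co a b).2
    simp only
    rw [h.1, h.2, Nat.mod_eq_of_lt ha, Nat.mod_eq_of_lt hb]

end Vale.Agent.Lib.P018
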