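import Mathlib

open Polynomial

namespace Vale.Agent.Lib.P018

/-- `a` is `k`-power-free: no prime `k`-th power divides `a` (so `0` is not `k`-power-free). -/
def KFree (k : ℕ) (a : ℤ) : Prop := ∀ p : ℕ, p.Prime → ¬ ((p : ℤ) ^ k ∣ a)

/-- `ρ_f(q)`: the number of residues `a` modulo `q` with `f(a) ≡ 0 (mod q)`. -/
noncomputable def rho (f : ℤ[X]) (q : ℕ) : ℕ :=
  ((Finset.range q).filter (fun a : ℕ => (q : ℤ) ∣ f.eval (a : ℤ))).card

open Classical in
/-- `S_{f,k}(X)`: the number of `1 ≤ n ≤ X` with `f(n)` `k`-power-free. -/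
noncomputable def S (f : ℤ[X]) (k X : ℕ) : ℕ :=
  ((Finset.Icc 1 X).filter (fun n : ℕ => KFree k (f.eval (n : ℤ)))).card

/-- the local condition at exponent `k` -/
def LocalCond (f : ℤ[X]) (k : ℕ) : Prop := ∀ p : ℕ, p.Prime → rho f (p ^ k) < p ^ k

/-- the partial product over the primes `p ≤ N` of `1 - ρ_f(p^k) / p^k` -/
noncomputable def cPart (f : ℤ[X]) (k N : ℕ) : ℝ :=
  ∏ p ∈ (Finset.range (N + 1)).filter Nat.Prime, (1 - (rho f (p ^ k) : ℝ) / ((p : ℝ) ^ k))

/-- the predicted density `c_{f,k} = ∏_p (1 - ρ_f(p^k) / p^k)`: all factors lie in `[0, 1]`, so the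
partial products decrease and the infinite product is their infimum (= limit). -/
noncomputable def cConst (f : ℤ[X]) (k : ℕ) : ℝ := ⨅ N : ℕ, cPart f k N

/-- the predicted asymptotic `S_{f,k}(X) = c_{f,k} X + o(X)` -/
def Asymp (f : ℤ[X]) (k : ℕ) : Prop :=
  Filter.Tendsto (fun X : ℕ => (S f k X : ℝ) / (X : ℝ)) Filter.atTop (nhds (cConst f k))

/-- the pair `(d, k)` qualifies: the predicted asymptotic holds for every `f ∈ ℤ[x]` irreducible
over `ℚ` of degree `d` that satisfies the local condition at exponent `k` -/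
def Qualifies (d k : ℕ) : Prop :=
  ∀ f : ℤ[X], Irreducible (f.map (Int.castRingHom ℚ)) → f.natDegree = d → LocalCond f k →
    Asymp f k

end Vale.Agent.Lib.P018
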