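import Vale.Agent.Lib.P018.Sieve

open Polynomial

namespace Vale.Agent.Lib.P018

/-- Bezout identity over `ℤ` for a polynomial that is irreducible over `ℚ` -/
theorem exists_bezout (f : ℤ[X]) (hirr : Irreducible (f.map (Int.castRingHom ℚ))) :
    ∃ (U V : ℤ[X]) (R : ℤ), R ≠ 0 ∧ U * f + V * derivative f = C R := by
  obtain ⟨a, b, hab⟩ := hirr.separable
  obtain ⟨α, hα, hA⟩ := IsLocalization.integerNormalization_spec (nonZeroDivisors ℤ) a
  obtain ⟨β, hβ, hB⟩ := IsLocalization.integerNormalization_spec (nonZeroDivisors ℤ) b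
  set A := IsLocalization.integerNormalization (nonZeroDivisors ℤ) a
  set B := IsLocalization.integerNormalization (nonZeroDivisors ℤ) b
  have hα0 : α ≠ 0 := nonZeroDivisors.ne_zero hα
  have hβ0 : β ≠ 0 := nonZeroDivisors.ne_zero hβ
  refine ⟨C β * A, C α * B, α * β, mul_ne_zero hα0 hβ0, ?_⟩
  apply Polynomial.map_injective (Int.castRingHom ℚ) Int.cast_injective
  have hA' : A.map (Int.castRingHom ℚ) = α • a := hA
  have hB' : B.map (Int.castRingHom ℚ) = β • b := hB
  simp only [Polynomial.map_add, Polynomial.map_mul, Polynomial.map_C, ← derivative_map, hA', hB']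
  have : (C ((Int.castRingHom ℚ) β) * α • a * map (Int.castRingHom ℚ) f +
      C ((Int.castRingHom ℚ) α) * β • b * derivative (map (Int.castRingHom ℚ) f)) =
      C ((α : ℚ) * (β : ℚ)) * (a * map (Int.castRingHom ℚ) f +
        b * derivative (map (Int.castRingHom ℚ) f)) := by
    simp only [zsmul_eq_mul, eq_intCast, C_mul, map_intCast]
    ring
  rw [this, hab]
  simp

/-- Uniqueness in Hensel's lemma: away from the primes dividing the Bezout constant, a polynomial
has at most `deg` roots modulo every prime power. -/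
theorem rho_le_natDegree (F U V : ℤ[X]) (R : ℤ) (hB : U * F + V * derivative F = C R) (p : ℕ)
    (hp : p.Prime) (hpR : ¬ (p : ℤ) ∣ R) (k : ℕ) (hk : 1 ≤ k) : rho F (p ^ k) ≤ F.natDegree := by
  classical
  have : Fact p.Prime := ⟨hp⟩
  set φ := Int.castRingHom (ZMod p) with hφ
  have hBφ : U.map φ * F.map φ + V.map φ * derivative (F.map φ) = C (φ R) := by
    have := congrArg (Polynomial.map φ) hB
    simpa only [Polynomial.map_add, Polynomial.map_mul, Polynomial.map_C, derivative_map] using this
  have hφR : φ R ≠ 0 := by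
    intro h
    apply hpR
    exact (ZMod.intCast_zmod_eq_zero_iff_dvd R p).1 h
  have hF0 : F.map φ ≠ 0 := by
    intro h
    rw [h] at hBφ
    simp only [mul_zero, derivative_zero, add_zero] at hBφ
    exact hφR (C_eq_zero.1 hBφ.symm)
  have hpZ : Prime (p : ℤ) := Nat.prime_iff_prime_int.1 hp
  have hcard : rho F (p ^ k) ≤ (F.map φ).roots.toFinset.card := by
    unfold rho
    apply Finset.card_le_card_of_injOn (fun a : ℕ => (a : ZMod p))
    · intro a ha
      simp only [Finset.coe_filter, Finset.mem_range, Set.mem_ofPred_eq] at ha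
      simp only [Finset.mem_coe, Multiset.mem_toFinset]
      rw [mem_roots hF0, IsRoot.def]
      have h1 : (p : ℤ) ∣ F.eval (a : ℤ) := by
        refine dvd_trans ?_ ha.2
        push_cast
        exact dvd_pow_self _ (by omega)
      have h2 : φ (F.eval (a : ℤ)) = 0 := (ZMod.intCast_zmod_eq_zero_iff_dvd _ p).2 h1
      rw [← h2, ← Int.cast_natCast, eval_intCast_map]
      simp
    · intro a ha b hb hab
      simp only [Finset.coe_filter, Finset.mem_range, Set.mem_ofPred_eq] at ha hb
      simp only at hab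
      have hdvd : (p : ℤ) ∣ (b : ℤ) - (a : ℤ) := by
        have : ((b : ℤ) - (a : ℤ) : ZMod p) = 0 := by
          push_cast; rw [hab]; ring
        have h' : (((b : ℤ) - (a : ℤ) : ℤ) : ZMod p) = 0 := by
          push_cast; rw [hab]; ring
        exact (ZMod.intCast_zmod_eq_zero_iff_dvd _ p).1 h'
      obtain ⟨h, hh⟩ := binomExpansion F (a : ℤ) ((b : ℤ) - (a : ℤ))
      rw [add_sub_cancel] at hh
      set w : ℤ := eval (a : ℤ) (derivative F) + h * ((b : ℤ) - a) with hw
      have hfac : F.eval (b : ℤ) - F.eval (a : ℤ) = ((b : ℤ) - a) * w := by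
        rw [hh, hw]; ring
      have hpk : ((p : ℤ) ^ k) ∣ ((b : ℤ) - a) * w := by
        rw [← hfac]
        have h1 := ha.2
        have h2 := hb.2
        push_cast at h1 h2
        exact dvd_sub h2 h1
      have hnw : ¬ (p : ℤ) ∣ w := by
        intro hpw
        have h1 : (p : ℤ) ∣ eval (a : ℤ) (derivative F) := by
          have : (p : ℤ) ∣ h * ((b : ℤ) - a) := Dvd.dvd.mul_left hdvd h
          have := dvd_sub hpw this
          rw [hw] at this
          simpa using this
        have h2 : (p : ℤ) ∣ F.eval (a : ℤ) := by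
          refine dvd_trans ?_ ha.2
          push_cast
          exact dvd_pow_self _ (by omega)
        have h3 := congrArg (eval (a : ℤ)) hB
        simp only [eval_add, eval_mul, eval_C] at h3
        apply hpR
        rw [← h3]
        exact dvd_add (Dvd.dvd.mul_left h2 _) (Dvd.dvd.mul_left h1 _)
      have hcop : IsCoprime ((p : ℤ) ^ k) w :=
        IsCoprime.pow_left ((Prime.coprime_iff_not_dvd hpZ).2 hnw)
      have hfin : ((p : ℤ) ^ k) ∣ (b : ℤ) - a := hcop.dvd_of_dvd_mul_right hpk
      have hmod : (a : ℤ) ≡ b [ZMOD ((p ^ k : ℕ) : ℤ)] := by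
        rw [Int.modEq_iff_dvd]; push_cast; exact hfin
      have hmod' : a ≡ b [MOD p ^ k] := (Int.natCast_modEq_iff).1 hmod
      exact Nat.ModEq.eq_of_lt_of_lt hmod' ha.1 hb.1
  calc rho F (p ^ k) ≤ (F.map φ).roots.toFinset.card := hcard
    _ ≤ (F.map φ).roots.card := Multiset.toFinset_card_le _
    _ ≤ (F.map φ).natDegree := card_roots' _
    _ ≤ F.natDegree := natDegree_map_le

end Vale.Agent.Lib.P018
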