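import Vale.Agent.Lib.P018.Transform

open Polynomial

namespace Vale.Agent.Lib.P018

theorem one_sub_sum_le_prod {ι : Type*} (s : Finset ι) (x : ι → ℝ) (h0 : ∀ i ∈ s, 0 ≤ x i)
    (h1 : ∀ i ∈ s, x i ≤ 1) : 1 - ∑ i ∈ s, x i ≤ ∏ i ∈ s, (1 - x i) := by
  classical
  induction s using Finset.induction_on with
  | empty => simp
  | insert a s ha ih =>
    rw [Finset.sum_insert ha, Finset.prod_insert ha]
    have ih' := ih (fun i hi => h0 i (Finset.mem_insert_of_mem hi))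
      (fun i hi => h1 i (Finset.mem_insert_of_mem hi))
    have ha0 := h0 a (Finset.mem_insert_self _ _)
    have ha1 := h1 a (Finset.mem_insert_self _ _)
    have hs0 : 0 ≤ ∑ i ∈ s, x i :=
      Finset.sum_nonneg (fun i hi => h0 i (Finset.mem_insert_of_mem hi))
    nlinarith [mul_le_mul_of_nonneg_left ih' (sub_nonneg.2 ha1), mul_nonneg ha0 hs0]

theorem rho_eq_zero (F : ℤ[X]) (p k : ℕ) (hk : 1 ≤ k) (h : ∀ t : ℤ, ¬ (p : ℤ) ∣ F.eval t) :
    rho F (p ^ k) = 0 := by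
  unfold rho
  rw [Finset.card_eq_zero, Finset.filter_eq_empty_iff]
  intro a _ hd
  apply h (a : ℤ)
  refine dvd_trans ?_ hd
  push_cast
  exact dvd_pow_self _ (by omega)

theorem cPart_nonneg (f : ℤ[X]) (k N : ℕ) : 0 ≤ cPart f k N := by
  unfold cPart
  apply Finset.prod_nonneg
  intro p hp
  have hpp : p.Prime := (Finset.mem_filter.1 hp).2
  have hpos : (0 : ℝ) < (p : ℝ) ^ k := by
    have := hpp.pos
    positivity
  rw [sub_nonneg, div_le_one hpos]
  exact_mod_cast rho_le_self f (p ^ k)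

theorem cConst_le_cPart (f : ℤ[X]) (k N : ℕ) : cConst f k ≤ cPart f k N :=
  ciInf_le ⟨0, by rintro _ ⟨M, rfl⟩; exact cPart_nonneg f k M⟩ N

theorem cPart_ge (F : ℤ[X]) (k ξ d : ℕ) (hk : 2 ≤ k) (hξ : 1 ≤ ξ)
    (h0 : ∀ p ∈ primesLe ξ, rho F (p ^ k) = 0)
    (h1 : ∀ p : ℕ, p.Prime → ξ < p → rho F (p ^ k) ≤ d) (N : ℕ) :
    1 - (d : ℝ) / ξ ≤ cPart F k N := by
  unfold cPart
  refine le_trans ?_ (one_sub_sum_le_prod _ _ ?_ ?_)
  · have hsum : ∑ p ∈ (Finset.range (N + 1)).filter Nat.Prime,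
        (rho F (p ^ k) : ℝ) / ((p : ℝ) ^ k) ≤ ∑ n ∈ Finset.Ioc ξ (max ξ N), (d : ℝ) * ((n : ℝ) ^ 2)⁻¹ := by
      have hstep : ∑ p ∈ (Finset.range (N + 1)).filter Nat.Prime,
          (rho F (p ^ k) : ℝ) / ((p : ℝ) ^ k) =
          ∑ p ∈ ((Finset.range (N + 1)).filter Nat.Prime).filter (fun p => ξ < p),
          (rho F (p ^ k) : ℝ) / ((p : ℝ) ^ k) := by
        symm
        apply Finset.sum_subset (Finset.filter_subset _ _)
        intro p hp hp'
        have hpp : p.Prime := (Finset.mem_filter.1 hp).2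
        have hle : p ≤ ξ := by
          by_contra hlt
          exact hp' (Finset.mem_filter.2 ⟨hp, by omega⟩)
        rw [h0 p (mem_primesLe.2 ⟨hle, hpp⟩)]
        simp
      rw [hstep]
      calc ∑ p ∈ ((Finset.range (N + 1)).filter Nat.Prime).filter (fun p => ξ < p),
          (rho F (p ^ k) : ℝ) / ((p : ℝ) ^ k)
          ≤ ∑ p ∈ ((Finset.range (N + 1)).filter Nat.Prime).filter (fun p => ξ < p),
            (d : ℝ) * ((p : ℝ) ^ 2)⁻¹ := by
            apply Finset.sum_le_sum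
            intro p hp
            rw [Finset.mem_filter, Finset.mem_filter] at hp
            have hpp : p.Prime := hp.1.2
            have hp1 : (1 : ℝ) ≤ p := by exact_mod_cast hpp.one_lt.le
            have hr : (rho F (p ^ k) : ℝ) ≤ d := by exact_mod_cast h1 p hpp hp.2
            have hpow : (p : ℝ) ^ 2 ≤ (p : ℝ) ^ k := pow_le_pow_right₀ hp1 hk
            have hpos2 : (0 : ℝ) < (p : ℝ) ^ 2 := by positivity
            rw [div_eq_mul_inv]
            apply mul_le_mul hr (inv_anti₀ hpos2 hpow) (by positivity) (by positivity)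
        _ ≤ ∑ n ∈ Finset.Ioc ξ (max ξ N), (d : ℝ) * ((n : ℝ) ^ 2)⁻¹ := by
            apply Finset.sum_le_sum_of_subset_of_nonneg
            · intro p hp
              rw [Finset.mem_filter, Finset.mem_filter, Finset.mem_range] at hp
              rw [Finset.mem_Ioc]
              refine ⟨hp.2, le_trans ?_ (le_max_right _ _)⟩
              omega
            · intro n _ _
              positivity
    have h2 := sum_Ioc_inv_sq_le_sub (α := ℝ) (k := ξ) (n := max ξ N) (by omega) (le_max_left _ _)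
    rw [← Finset.mul_sum] at hsum
    have h3 : (0 : ℝ) ≤ ((max ξ N : ℕ) : ℝ)⁻¹ := by positivity
    have h4 : (d : ℝ) * ∑ n ∈ Finset.Ioc ξ (max ξ N), ((n : ℝ) ^ 2)⁻¹ ≤ (d : ℝ) * (ξ : ℝ)⁻¹ := by
      apply mul_le_mul_of_nonneg_left _ (by positivity)
      linarith
    rw [div_eq_mul_inv]
    linarith
  · intro p _
    positivity
  · intro p hp
    have hpp : p.Prime := (Finset.mem_filter.1 hp).2
    have hpos : (0 : ℝ) < (p : ℝ) ^ k := by
      have := hpp.pos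
      positivity
    rw [div_le_one hpos]
    exact_mod_cast rho_le_self F (p ^ k)

theorem cConst_ge (F : ℤ[X]) (k ξ d : ℕ) (hk : 2 ≤ k) (hξ : 1 ≤ ξ)
    (h0 : ∀ p ∈ primesLe ξ, rho F (p ^ k) = 0)
    (h1 : ∀ p : ℕ, p.Prime → ξ < p → rho F (p ^ k) ≤ d) :
    1 - (d : ℝ) / ξ ≤ cConst F k :=
  le_ciInf (cPart_ge F k ξ d hk hξ h0 h1)

theorem not_dvd_Qmod (K ξ p : ℕ) (hp : p.Prime) (hξ : ξ < p) :
    ¬ (p : ℤ) ∣ (Qmod K (primesLe ξ) : ℤ) := by
  intro h1
  have h2 : p ∣ Qmod K (primesLe ξ) := by exact_mod_cast h1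
  unfold Qmod at h2
  obtain ⟨r, hr, hpr⟩ := (Prime.dvd_finsetProd_iff (Nat.prime_iff.1 hp) _).1 h2
  have h3 : p ∣ r := hp.dvd_of_dvd_pow hpr
  have hr' := mem_primesLe.1 hr
  have := Nat.le_of_dvd hr'.2.pos h3
  omega

theorem not_dvd_Qmod_mul (K ξ p : ℕ) (hp : p.Prime) (hξ : ξ < p) (R : ℤ) (hR : R ≠ 0)
    (hRξ : R.natAbs ≤ ξ) : ¬ (p : ℤ) ∣ (Qmod K (primesLe ξ) : ℤ) * R := by
  intro h
  have hpZ : Prime (p : ℤ) := Nat.prime_iff_prime_int.1 hp
  rcases hpZ.dvd_or_dvd h with h1 | h1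
  · exact not_dvd_Qmod K ξ p hp hξ h1
  · have h2 : p ∣ R.natAbs := Int.natCast_dvd.1 h1
    have := Nat.le_of_dvd (Int.natAbs_pos.2 hR) h2
    omega

end Vale.Agent.Lib.P018
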