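import Vale.Agent.Lib.P018.Tail

open Polynomial Filter

namespace Vale.Agent.Lib.P018

open Classical in
theorem S_add_tail (f : ℤ[X]) (K ξ X : ℕ) :
    S f K X + ((Finset.Icc 1 X).filter (fun n : ℕ =>
      Surv f K (primesLe ξ) n ∧ ¬ KFree K (f.eval (n : ℤ)))).card =
    ((Finset.Icc 1 X).filter (Surv f K (primesLe ξ))).card := by
  have h := Finset.card_filter_add_card_filter_not
    (s := (Finset.Icc 1 X).filter (Surv f K (primesLe ξ)))
    (fun n : ℕ => KFree K (f.eval (n : ℤ)))
  rw [Finset.filter_filter, Finset.filter_filter] at h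
  rw [← h]
  congr 1
  unfold S
  congr 1
  ext n
  simp only [Finset.mem_filter, Finset.mem_Icc]
  constructor
  · rintro ⟨h1, h2⟩
    exact ⟨h1, fun p hp => h2 p (mem_primesLe.1 hp).2, h2⟩
  · rintro ⟨h1, _, h2⟩
    exact ⟨h1, h2⟩

open Classical in
theorem survivors_real (f : ℤ[X]) (K ξ X : ℕ) :
    |(((Finset.Icc 1 X).filter (Surv f K (primesLe ξ))).card : ℝ) - (X : ℝ) * cPart f K ξ| ≤
      Qmod K (primesLe ξ) := by
  have h := card_Icc_periodic_real (Qmod K (primesLe ξ))
    (Qmod_pos (fun p hp => (mem_primesLe.1 hp).2)) (Surv f K (primesLe ξ))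
    (Surv_periodic f K (primesLe ξ)) X
  rwa [density_Surv] at h

theorem eventually_le_mul (q ε : ℝ) (hε : 0 < ε) : ∀ᶠ X : ℕ in atTop, q ≤ ε * X := by
  obtain ⟨N, hN⟩ := exists_nat_ge (q / ε)
  filter_upwards [eventually_ge_atTop N] with X hX
  have : q / ε ≤ X := hN.trans (by exact_mod_cast hX)
  rw [div_le_iff₀ hε] at this
  linarith

/-- the induction step: the pair `(d, k)` qualifying forces the pair `(d, k + 1)` to qualify -/
theorem qualifies_succ (d k : ℕ) (hk : 2 ≤ k) (hQ : Qualifies d k) : Qualifies d (k + 1) := by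
  classical
  intro f hirr hdeg _
  obtain ⟨U, V, R, hR, hB⟩ := exists_bezout f hirr
  unfold Asymp
  rw [tendsto_order]
  constructor
  · intro c hc
    set ε := (cConst f (k + 1) - c) / 4 with hε
    have hεpos : 0 < ε := by rw [hε]; linarith
    obtain ⟨N, hN⟩ := exists_nat_ge ((d : ℝ) / ε)
    set ξ := max (max 1 d) (max R.natAbs N) with hξ
    have hξ1 : 1 ≤ ξ := le_trans (le_max_left _ _) (le_max_left _ _)
    have hξd : d ≤ ξ := le_trans (le_max_right _ _) (le_max_left _ _)
    have hξR : R.natAbs ≤ ξ := le_trans (le_max_left _ _) (le_max_right _ _)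
    have hξN : N ≤ ξ := le_trans (le_max_right _ _) (le_max_right _ _)
    have hξpos : (0 : ℝ) < ξ := by exact_mod_cast hξ1
    have hdξ : (d : ℝ) / ξ ≤ ε := by
      have h1 : (d : ℝ) / ε ≤ ξ := hN.trans (by exact_mod_cast hξN)
      rw [div_le_iff₀ hεpos] at h1
      rw [div_le_iff₀ hξpos]
      linarith
    have ht := tail d k hk hQ f hirr hdeg U V R hR hB ξ hξ1 hξd hξR ε hεpos
    have hq := eventually_le_mul (Qmod (k + 1) (primesLe ξ) : ℝ) ε hεpos
    filter_upwards [ht, hq, eventually_gt_atTop 0] with X hX1 hX2 hX3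
    have hXpos : (0 : ℝ) < X := by exact_mod_cast hX3
    rw [lt_div_iff₀ hXpos]
    have h1 := S_add_tail f (k + 1) ξ X
    have h1' : (S f (k + 1) X : ℝ) + (((Finset.Icc 1 X).filter (fun n : ℕ =>
      Surv f (k + 1) (primesLe ξ) n ∧ ¬ KFree (k + 1) (f.eval (n : ℤ)))).card : ℝ) =
      (((Finset.Icc 1 X).filter (Surv f (k + 1) (primesLe ξ))).card : ℝ) := by exact_mod_cast h1
    have h2 := (abs_le.1 (survivors_real f (k + 1) ξ X)).1
    have h3 := cConst_le_cPart f (k + 1) ξ
    have h4 : (X : ℝ) * cConst f (k + 1) ≤ (X : ℝ) * cPart f (k + 1) ξ :=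
      mul_le_mul_of_nonneg_left h3 hXpos.le
    have h5 : ((d : ℝ) / ξ + ε) * X ≤ (ε + ε) * X :=
      mul_le_mul_of_nonneg_right (by linarith) hXpos.le
    have h6 : cConst f (k + 1) = c + 4 * ε := by rw [hε]; ring
    rw [h6] at h4
    nlinarith
  · intro c hc
    obtain ⟨ξ, hξ⟩ := exists_lt_of_ciInf_lt hc
    set ε := (c - cPart f (k + 1) ξ) / 2 with hε
    have hεpos : 0 < ε := by rw [hε]; linarith
    have hq := eventually_le_mul (Qmod (k + 1) (primesLe ξ) : ℝ) ε hεpos
    filter_upwards [hq, eventually_gt_atTop 0] with X hX2 hX3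
    have hXpos : (0 : ℝ) < X := by exact_mod_cast hX3
    rw [div_lt_iff₀ hXpos]
    have h1 := S_add_tail f (k + 1) ξ X
    have h1' : (S f (k + 1) X : ℝ) ≤
      (((Finset.Icc 1 X).filter (Surv f (k + 1) (primesLe ξ))).card : ℝ) := by
      exact_mod_cast (Nat.le_add_right _ _).trans h1.le
    have h2 := (abs_le.1 (survivors_real f (k + 1) ξ X)).2
    have h6 : c = cPart f (k + 1) ξ + 2 * ε := by rw [hε]; ring
    rw [h6]
    nlinarith

/-- the set of qualifying pairs is upward closed in `k` -/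
theorem qualifies_mono (d k k' : ℕ) (hk : 2 ≤ k) (hkk' : k ≤ k') (hQ : Qualifies d k) :
    Qualifies d k' := by
  induction k', hkk' using Nat.le_induction with
  | base => exact hQ
  | succ n hn ih => exact qualifies_succ d n (hk.trans hn) ih

theorem cPart_antitone (f : ℤ[X]) (k : ℕ) : Antitone (cPart f k) := by
  apply antitone_nat_of_succ_le
  intro N
  unfold cPart
  rw [Finset.range_add_one (n := N + 1), Finset.filter_insert]
  split_ifs with hp
  · rw [Finset.prod_insert (by simp)]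
    have h0 := cPart_nonneg f k N
    unfold cPart at h0
    have h1 : 1 - (rho f ((N + 1) ^ k) : ℝ) / (((N + 1 : ℕ) : ℝ) ^ k) ≤ 1 := by
      have : 0 ≤ (rho f ((N + 1) ^ k) : ℝ) / (((N + 1 : ℕ) : ℝ) ^ k) := by positivity
      linarith
    exact mul_le_of_le_one_left h0 h1
  · exact le_refl _

/-- `cConst` is the limit of the partial products, that is the infinite product -/
theorem tendsto_cPart (f : ℤ[X]) (k : ℕ) :
    Tendsto (cPart f k) atTop (nhds (cConst f k)) :=
  tendsto_atTop_ciInf (cPart_antitone f k)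
    ⟨0, by rintro _ ⟨M, rfl⟩; exact cPart_nonneg f k M⟩

end Vale.Agent.Lib.P018
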