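import Vale.Agent.Lib.P018.Count

open Polynomial

namespace Vale.Agent.Lib.P018

theorem dvd_eval_add (f : ℤ[X]) {q m : ℤ} (n : ℤ) (h : q ∣ m) :
    q ∣ f.eval (n + m) ↔ q ∣ f.eval n := by
  have h1 : q ∣ f.eval (n + m) - f.eval n := by
    have := sub_dvd_eval_sub (n + m) n f
    rw [add_sub_cancel_left] at this
    exact h.trans this
  constructor
  · intro h2
    have := dvd_sub h2 h1
    simpa using this
  · intro h2
    have := dvd_add h1 h2
    simpa using this

/-- the primes up to `ξ` -/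
def primesLe (ξ : ℕ) : Finset ℕ := (Finset.range (ξ + 1)).filter Nat.Prime

theorem mem_primesLe {ξ p : ℕ} : p ∈ primesLe ξ ↔ p ≤ ξ ∧ p.Prime := by
  simp [primesLe]

/-- the modulus `∏_{p ∈ P} p^K` -/
def Qmod (K : ℕ) (P : Finset ℕ) : ℕ := ∏ p ∈ P, p ^ K

/-- `n` survives the sieve by the primes of `P` at exponent `K` -/
def Surv (f : ℤ[X]) (K : ℕ) (P : Finset ℕ) (n : ℕ) : Prop :=
  ∀ p ∈ P, ¬ ((p : ℤ) ^ K ∣ f.eval (n : ℤ))

theorem Qmod_pos {K : ℕ} {P : Finset ℕ} (hP : ∀ p ∈ P, p.Prime) : 0 < Qmod K P :=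
  Finset.prod_pos (fun p hp => pow_pos (hP p hp).pos K)

theorem pow_dvd_Qmod {K : ℕ} {P : Finset ℕ} {p : ℕ} (hp : p ∈ P) : p ^ K ∣ Qmod K P :=
  Finset.dvd_prod_of_mem _ hp

theorem periodic_not_dvd (f : ℤ[X]) (q : ℕ) {m : ℕ} (h : q ∣ m) :
    Function.Periodic (fun n : ℕ => ¬ ((q : ℤ) ∣ f.eval (n : ℤ))) m := by
  intro n
  simp only [Nat.cast_add]
  rw [dvd_eval_add f (n : ℤ) (by exact_mod_cast h)]

theorem Surv_periodic (f : ℤ[X]) (K : ℕ) (P : Finset ℕ) :
    Function.Periodic (Surv f K P) (Qmod K P) := by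
  intro n
  apply propext
  unfold Surv
  apply forall₂_congr
  intro p hp
  have h : ((p : ℤ) ^ K) ∣ ((Qmod K P : ℕ) : ℤ) := by exact_mod_cast pow_dvd_Qmod hp
  rw [Nat.cast_add, dvd_eval_add f (n : ℤ) h]

theorem rho_le_self (f : ℤ[X]) (q : ℕ) : rho f q ≤ q := by
  unfold rho
  exact (Finset.card_filter_le _ _).trans (by simp)

open Classical in
theorem card_not_dvd (f : ℤ[X]) (q : ℕ) :
    ((Finset.range q).filter (fun n : ℕ => ¬ ((q : ℤ) ∣ f.eval (n : ℤ)))).card = q - rho f q := by
  have h := Finset.card_filter_add_card_filter_not (s := Finset.range q)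
    (fun n : ℕ => (q : ℤ) ∣ f.eval (n : ℤ))
  rw [Finset.card_range] at h
  unfold rho
  have e : ((Finset.range q).filter (fun a : ℕ => (q : ℤ) ∣ f.eval (a : ℤ))).card =
    (Finset.filter (fun n : ℕ => (q : ℤ) ∣ f.eval (n : ℤ)) (Finset.range q)).card := by
    congr
  omega

open Classical in
/-- the number of surviving residues -/
theorem card_Surv (f : ℤ[X]) (K : ℕ) (P : Finset ℕ) (hP : ∀ p ∈ P, p.Prime) :
    ((Finset.range (Qmod K P)).filter (Surv f K P)).card = ∏ p ∈ P, (p ^ K - rho f (p ^ K)) := by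
  induction P using Finset.induction_on with
  | empty =>
    have : Finset.filter (Surv f K ∅) (Finset.range (Qmod K ∅)) = Finset.range (Qmod K ∅) := by
      apply Finset.filter_true_of_mem
      intro n _ p hp
      simp at hp
    rw [this]
    simp [Qmod]
  | insert p P hp ih =>
    have hP' : ∀ r ∈ P, r.Prime := fun r hr => hP r (Finset.mem_insert_of_mem hr)
    have hpp : p.Prime := hP p (Finset.mem_insert_self _ _)
    have hQ : Qmod K (insert p P) = p ^ K * Qmod K P := by
      unfold Qmod; rw [Finset.prod_insert hp]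
    have hco : (p ^ K).Coprime (Qmod K P) := by
      unfold Qmod
      apply Nat.Coprime.prod_right
      intro r hr
      apply Nat.Coprime.pow
      rw [Nat.coprime_primes hpp (hP' r hr)]
      intro h; rw [h] at hp; exact hp hr
    have hS : ∀ n, Surv f K (insert p P) n ↔
        (¬ (((p ^ K : ℕ) : ℤ) ∣ f.eval (n : ℤ))) ∧ Surv f K P n := by
      intro n
      unfold Surv
      rw [Finset.forall_mem_insert]
      push_cast
      rfl
    rw [hQ, Finset.prod_insert hp, ← ih hP', ← card_not_dvd]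
    rw [← card_filter_mul (pow_pos hpp.pos K).ne' (Qmod_pos hP').ne' hco _ _
      (periodic_not_dvd f (p ^ K) (dvd_refl _)) (Surv_periodic f K P)]
    congr 1
    ext n
    simp only [Finset.mem_filter, hS]

open Classical in
/-- the density of the survivors is the partial product -/
theorem density_Surv (f : ℤ[X]) (K ξ : ℕ) :
    (((Finset.range (Qmod K (primesLe ξ))).filter (Surv f K (primesLe ξ))).card : ℝ) /
      (Qmod K (primesLe ξ) : ℝ) = cPart f K ξ := by
  have hP : ∀ p ∈ primesLe ξ, p.Prime := fun p hp => (mem_primesLe.1 hp).2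
  rw [card_Surv f K _ hP]
  unfold Qmod cPart
  push_cast
  rw [← Finset.prod_div_distrib]
  apply Finset.prod_congr rfl
  intro p hp
  have hpos : (0 : ℝ) < (p : ℝ) ^ K := by
    have := (hP p hp).pos
    positivity
  rw [Nat.cast_sub (rho_le_self f _)]
  push_cast
  field_simp

end Vale.Agent.Lib.P018
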