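import Vale.Agent.Lib.P018.Local

open Polynomial Filter

namespace Vale.Agent.Lib.P018

theorem Surv_mul_add (f : ℤ[X]) (K : ℕ) (P : Finset ℕ) (a t : ℕ) :
    Surv f K P (Qmod K P * t + a) ↔ Surv f K P a := by
  have h := (Surv_periodic f K P).nat_mul t a
  rw [Nat.cast_id] at h
  rw [add_comm, mul_comm, h]

theorem Surv_mod (f : ℤ[X]) (K : ℕ) (P : Finset ℕ) (n : ℕ) :
    Surv f K P (n % Qmod K P) ↔ Surv f K P n := by
  rw [(Surv_periodic f K P).map_mod_nat]

/-- a value on a surviving class that is not `(k+1)`-free gives a value of `F` that is not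
`k`-free -/
theorem not_KFree_transfer (f F : ℤ[X]) (g : ℤ) (k ξ a : ℕ)
    (ha : Surv f (k + 1) (primesLe ξ) a)
    (hgq : g ∣ (Qmod (k + 1) (primesLe ξ) : ℤ))
    (heval : ∀ t : ℤ, f.eval ((Qmod (k + 1) (primesLe ξ) : ℤ) * t + a) = g * F.eval t) (t : ℕ)
    (h : ¬ KFree (k + 1) (f.eval ((Qmod (k + 1) (primesLe ξ) : ℤ) * t + a))) :
    ¬ KFree k (F.eval (t : ℤ)) := by
  unfold KFree at h ⊢
  push Not at h ⊢
  obtain ⟨p, hp, hd⟩ := h
  refine ⟨p, hp, ?_⟩
  have hpZ : Prime (p : ℤ) := Nat.prime_iff_prime_int.1 hp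
  have hs : Surv f (k + 1) (primesLe ξ) (Qmod (k + 1) (primesLe ξ) * t + a) :=
    (Surv_mul_add f _ _ a t).2 ha
  have hpξ : ξ < p := by
    by_contra hle
    apply hs p (mem_primesLe.2 ⟨by omega, hp⟩)
    push_cast
    exact hd
  have hng : ¬ (p : ℤ) ∣ g := by
    intro hpg
    exact not_dvd_Qmod (k + 1) ξ p hp hpξ (hpg.trans hgq)
  have hcop : IsCoprime ((p : ℤ) ^ (k + 1)) g :=
    IsCoprime.pow_left ((Prime.coprime_iff_not_dvd hpZ).2 hng)
  rw [heval] at hd
  have := hcop.dvd_of_dvd_mul_left hd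
  exact (pow_dvd_pow _ (Nat.le_succ k)).trans this

open Classical in
theorem card_residue_le (f F : ℤ[X]) (q a k X : ℕ)
    (himp : ∀ t : ℕ, ¬ KFree (k + 1) (f.eval ((q : ℤ) * t + a)) → ¬ KFree k (F.eval (t : ℤ))) :
    (((Finset.Icc 1 X).filter
      (fun n : ℕ => n % q = a ∧ ¬ KFree (k + 1) (f.eval (n : ℤ)))).card : ℝ) + S F k (X / q) ≤
      1 + ((X / q : ℕ) : ℝ) := by
  obtain ⟨T, hT⟩ : ∃ T, T = X / q := ⟨_, rfl⟩
  rw [← hT]
  have h1 : ((Finset.Icc 1 X).filter
      (fun n : ℕ => n % q = a ∧ ¬ KFree (k + 1) (f.eval (n : ℤ)))).card ≤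
      ((Finset.range (T + 1)).filter (fun t : ℕ => ¬ KFree k (F.eval (t : ℤ)))).card := by
    apply Finset.card_le_card_of_injOn (fun n => n / q)
    · intro n hn
      simp only [Finset.coe_filter, Finset.mem_Icc, Set.mem_ofPred_eq] at hn
      simp only [Finset.coe_filter, Finset.mem_range, Set.mem_ofPred_eq]
      refine ⟨Nat.lt_succ_of_le (hT ▸ Nat.div_le_div_right hn.1.2), ?_⟩
      apply himp
      have e : ((q : ℤ) * ((n / q : ℕ) : ℤ) + (a : ℤ)) = (n : ℤ) := by
        have := Nat.div_add_mod n q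
        rw [hn.2.1] at this
        exact_mod_cast this
      rw [e]
      exact hn.2.2
    · intro n hn m hm hnm
      simp only [Finset.coe_filter, Finset.mem_Icc, Set.mem_ofPred_eq] at hn hm
      simp only at hnm
      have e1 := Nat.div_add_mod n q
      have e2 := Nat.div_add_mod m q
      rw [hn.2.1, hnm] at e1
      rw [hm.2.1] at e2
      omega
  have h2 : ((Finset.range (T + 1)).filter (fun t : ℕ => ¬ KFree k (F.eval (t : ℤ)))).card ≤
      1 + ((Finset.Icc 1 T).filter (fun t : ℕ => ¬ KFree k (F.eval (t : ℤ)))).card := by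
    have e : Finset.range (T + 1) = insert 0 (Finset.Icc 1 T) := by
      ext x
      simp only [Finset.mem_range, Finset.mem_insert, Finset.mem_Icc]
      omega
    have hsub : (insert 0 (Finset.Icc 1 T)).filter (fun t : ℕ => ¬ KFree k (F.eval (t : ℤ))) ⊆
        insert 0 ((Finset.Icc 1 T).filter (fun t : ℕ => ¬ KFree k (F.eval (t : ℤ)))) := by
      intro x hx
      rw [Finset.mem_filter, Finset.mem_insert] at hx
      rw [Finset.mem_insert, Finset.mem_filter]
      tauto
    rw [e]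
    refine (Finset.card_le_card hsub).trans ((Finset.card_insert_le _ _).trans ?_)
    omega
  have h3 := Finset.card_filter_add_card_filter_not (s := Finset.Icc 1 T)
    (fun t : ℕ => KFree k (F.eval (t : ℤ)))
  rw [Nat.card_Icc, Nat.add_sub_cancel] at h3
  have h4 : S F k T = ((Finset.Icc 1 T).filter (fun t : ℕ => KFree k (F.eval (t : ℤ)))).card := rfl
  have h5 : ((Finset.Icc 1 X).filter
      (fun n : ℕ => n % q = a ∧ ¬ KFree (k + 1) (f.eval (n : ℤ)))).card + S F k T ≤ 1 + T := by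
    rw [h4]
    omega
  exact_mod_cast h5

open Classical in
theorem residue_eventually (f F : ℤ[X]) (q a k : ℕ) (hq : 0 < q) (δ : ℝ) (hδ : 0 ≤ δ)
    (himp : ∀ t : ℕ, ¬ KFree (k + 1) (f.eval ((q : ℤ) * t + a)) → ¬ KFree k (F.eval (t : ℤ)))
    (hA : Asymp F k) (hc : 1 - δ ≤ cConst F k) (ε : ℝ) (hε : 0 < ε) :
    ∀ᶠ X : ℕ in atTop, (((Finset.Icc 1 X).filter
      (fun n : ℕ => n % q = a ∧ ¬ KFree (k + 1) (f.eval (n : ℤ)))).card : ℝ) ≤
      (δ / q + ε) * X := by
  have h1 : ∀ᶠ T : ℕ in atTop, 1 - δ - ε / 2 < (S F k T : ℝ) / T := by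
    apply (tendsto_order.1 hA).1
    linarith
  have h2 : ∀ᶠ X : ℕ in atTop, 1 - δ - ε / 2 < (S F k (X / q) : ℝ) / ((X / q : ℕ) : ℝ) :=
    (Nat.tendsto_div_const_atTop hq.ne').eventually h1
  have h3 : ∀ᶠ X : ℕ in atTop, 1 ≤ ε / 2 * X := by
    obtain ⟨N, hN⟩ := exists_nat_ge (2 / ε)
    filter_upwards [eventually_ge_atTop N] with X hX
    have : (2 / ε) ≤ X := hN.trans (by exact_mod_cast hX)
    rw [div_le_iff₀ hε] at this
    linarith
  have h4 : ∀ᶠ X : ℕ in atTop, 0 < X / q :=
    (Nat.tendsto_div_const_atTop hq.ne').eventually (eventually_gt_atTop 0)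
  filter_upwards [h2, h3, h4] with X hX2 hX3 hX4
  have h5 := card_residue_le f F q a k X himp
  have hTX : ((X / q : ℕ) : ℝ) ≤ X / q := by
    rw [le_div_iff₀ (by exact_mod_cast hq)]
    exact_mod_cast Nat.div_mul_le_self X q
  generalize X / q = T at *
  have hT : (0 : ℝ) < T := by exact_mod_cast hX4
  rw [lt_div_iff₀ hT] at hX2
  have hq1 : (1 : ℝ) ≤ q := by exact_mod_cast hq
  have h6 : (δ + ε / 2) * T ≤ (δ + ε / 2) * (X / q) :=
    mul_le_mul_of_nonneg_left hTX (by positivity)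
  have h7 : ε / 2 * ((X : ℝ) / q) ≤ ε / 2 * X := by
    apply mul_le_mul_of_nonneg_left _ (by positivity)
    exact div_le_self (by positivity) hq1
  have e : (δ / q + ε) * X = δ * ((X : ℝ) / q) + ε / 2 * X + ε / 2 * X := by
    field_simp
    ring
  rw [e]
  nlinarith

open Classical in
/-- the tail estimate at exponent `k + 1`, from the asymptotic at exponent `k` for the transformed
polynomials -/
theorem tail (d k : ℕ) (hk : 2 ≤ k) (hQ : Qualifies d k) (f : ℤ[X])
    (hirr : Irreducible (f.map (Int.castRingHom ℚ))) (hdeg : f.natDegree = d) (U V : ℤ[X]) (R : ℤ)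
    (hR : R ≠ 0) (hB : U * f + V * derivative f = C R) (ξ : ℕ) (hξ1 : 1 ≤ ξ) (hξd : d ≤ ξ)
    (hξR : R.natAbs ≤ ξ) (ε : ℝ) (hε : 0 < ε) :
    ∀ᶠ X : ℕ in atTop, (((Finset.Icc 1 X).filter (fun n : ℕ =>
      Surv f (k + 1) (primesLe ξ) n ∧ ¬ KFree (k + 1) (f.eval (n : ℤ)))).card : ℝ) ≤
      ((d : ℝ) / ξ + ε) * X := by
  set q := Qmod (k + 1) (primesLe ξ) with hq
  have hqpos : 0 < q := Qmod_pos (fun p hp => (mem_primesLe.1 hp).2)
  have hqR : (0 : ℝ) < q := by exact_mod_cast hqpos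
  have hres : ∀ a ∈ Finset.range q, ∀ᶠ X : ℕ in atTop, ((((Finset.Icc 1 X).filter (fun n : ℕ =>
      Surv f (k + 1) (primesLe ξ) n ∧ ¬ KFree (k + 1) (f.eval (n : ℤ)))).filter
        (fun n => n % q = a)).card : ℝ) ≤ ((d : ℝ) / ξ / q + ε / q) * X := by
    intro a _
    by_cases ha : Surv f (k + 1) (primesLe ξ) a
    · obtain ⟨F, g, hgq, heval, hFirr, hFdeg, hFnd, U', V', hB'⟩ :=
        transform f hirr U V R hB (k + 1) ξ a ha
      have h0 : ∀ p ∈ primesLe ξ, rho F (p ^ k) = 0 :=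
        fun p hp => rho_eq_zero F p k (by omega) (hFnd p hp)
      have h1 : ∀ p : ℕ, p.Prime → ξ < p → rho F (p ^ k) ≤ d := by
        intro p hp hpξ
        have := rho_le_natDegree F U' V' _ hB' p hp
          (not_dvd_Qmod_mul (k + 1) ξ p hp hpξ R hR hξR) k (by omega)
        rw [hFdeg, hdeg] at this
        exact this
      have hloc : LocalCond F k := by
        intro p hp
        by_cases hpξ : p ≤ ξ
        · rw [h0 p (mem_primesLe.2 ⟨hpξ, hp⟩)]
          exact pow_pos hp.pos k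
        · have := h1 p hp (by omega)
          calc rho F (p ^ k) ≤ d := this
            _ < p := by omega
            _ ≤ p ^ k := Nat.le_self_pow (by omega) p
      have hA : Asymp F k := hQ F hFirr (hFdeg.trans hdeg) hloc
      have hc := cConst_ge F k ξ d hk hξ1 h0 h1
      have := residue_eventually f F q a k hqpos ((d : ℝ) / ξ) (by positivity)
        (fun t => not_KFree_transfer f F g k ξ a ha hgq heval t) hA hc (ε / q) (by positivity)
      filter_upwards [this] with X hX
      refine le_trans ?_ hX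
      have hsub : ((Finset.Icc 1 X).filter (fun n : ℕ =>
          Surv f (k + 1) (primesLe ξ) n ∧ ¬ KFree (k + 1) (f.eval (n : ℤ)))).filter
          (fun n => n % q = a) ⊆ (Finset.Icc 1 X).filter
          (fun n : ℕ => n % q = a ∧ ¬ KFree (k + 1) (f.eval (n : ℤ))) := by
        intro n hn
        rw [Finset.mem_filter, Finset.mem_filter] at hn
        rw [Finset.mem_filter]
        tauto
      exact_mod_cast Finset.card_le_card hsub
    · apply Eventually.of_forall
      intro X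
      have hempty : ((Finset.Icc 1 X).filter (fun n : ℕ =>
          Surv f (k + 1) (primesLe ξ) n ∧ ¬ KFree (k + 1) (f.eval (n : ℤ)))).filter
          (fun n => n % q = a) = ∅ := by
        rw [Finset.filter_eq_empty_iff]
        intro n hn hna
        rw [Finset.mem_filter] at hn
        apply ha
        rw [← hna]
        exact (Surv_mod f _ _ n).2 hn.2.1
      rw [hempty]
      simp only [Finset.card_empty, Nat.cast_zero]
      positivity
  have hall := (Filter.eventually_all_finset (Finset.range q)).2 hres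
  filter_upwards [hall] with X hX
  rw [Finset.card_eq_sum_card_fiberwise (f := fun n => n % q) (t := Finset.range q)
    (fun n _ => Finset.mem_coe.2 (Finset.mem_range.2 (Nat.mod_lt _ hqpos)))]
  push_cast
  calc _ ≤ ∑ a ∈ Finset.range q, ((d : ℝ) / ξ / q + ε / q) * X := Finset.sum_le_sum hX
    _ = _ := by
      rw [Finset.sum_const, Finset.card_range, nsmul_eq_mul]
      field_simp

end Vale.Agent.Lib.P018
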