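import Vale.Agent.Lib.P018.Hensel

open Polynomial

namespace Vale.Agent.Lib.P018

theorem C_dvd_comp (f : ℤ[X]) (q a g : ℤ) (hg : g ∣ f.eval a) (hgq : g ∣ q) :
    C g ∣ f.comp (C q * X + C a) := by
  have h1 : (C q * X + C a - C a) ∣ (f.map C).eval (C q * X + C a) - (f.map C).eval (C a) :=
    sub_dvd_eval_sub _ _ _
  rw [eval_map, eval_map] at h1
  change (C q * X + C a - C a) ∣ f.comp (C q * X + C a) - f.comp (C a) at h1
  rw [comp_C, add_sub_cancel_right] at h1
  have h2 : C g ∣ C q * X := Dvd.dvd.mul_right (map_dvd C hgq) _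
  have h3 : C g ∣ C (f.eval a) := map_dvd C hg
  have := dvd_add (h2.trans h1) h3
  simpa using this

theorem irreducible_comp_linear (P : ℚ[X]) (hP : Irreducible P) (q a : ℚ) (hq : q ≠ 0) :
    Irreducible (P.comp (C q * X + C a)) := by
  let _ : Invertible q := invertibleOfNonzero hq
  have h := (MulEquiv.irreducible_iff (algEquivCMulXAddC q a).toMulEquiv (x := P)).2 hP
  have e : (algEquivCMulXAddC q a).toMulEquiv P = P.comp (C q * X + C a) := by
    change (algEquivCMulXAddC q a) P = _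
    rw [algEquivCMulXAddC_apply, comp_eq_aeval]
  rwa [e] at h

/-- On a surviving residue class `n = q t + a` one has `f(n) = g F(t)` with `F` irreducible of the
same degree, with no value divisible by a sieved prime. -/
theorem transform (f : ℤ[X]) (hirr : Irreducible (f.map (Int.castRingHom ℚ))) (U V : ℤ[X]) (R : ℤ)
    (hB : U * f + V * derivative f = C R) (K ξ : ℕ) (a : ℕ)
    (ha : Surv f K (primesLe ξ) a) :
    ∃ (F : ℤ[X]) (g : ℤ), g ∣ (Qmod K (primesLe ξ) : ℤ) ∧
      (∀ t : ℤ, f.eval ((Qmod K (primesLe ξ) : ℤ) * t + a) = g * F.eval t) ∧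
      Irreducible (F.map (Int.castRingHom ℚ)) ∧ F.natDegree = f.natDegree ∧
      (∀ p ∈ primesLe ξ, ∀ t : ℤ, ¬ (p : ℤ) ∣ F.eval t) ∧
      ∃ U' V' : ℤ[X], U' * F + V' * derivative F = C ((Qmod K (primesLe ξ) : ℤ) * R) := by
  set q : ℕ := Qmod K (primesLe ξ) with hq
  have hqpos : 0 < q := Qmod_pos (fun p hp => (mem_primesLe.1 hp).2)
  have hq0 : (q : ℤ) ≠ 0 := by exact_mod_cast hqpos.ne'
  set g : ℤ := (Int.gcd (f.eval (a : ℤ)) (q : ℤ) : ℤ) with hg
  have hgf : g ∣ f.eval (a : ℤ) := Int.gcd_dvd_left ..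
  have hgq : g ∣ (q : ℤ) := Int.gcd_dvd_right ..
  have hg0 : g ≠ 0 := by
    intro h
    rw [h] at hgq
    exact hq0 (zero_dvd_iff.1 hgq)
  obtain ⟨F, hF⟩ := C_dvd_comp f q a g hgf hgq
  have heval : ∀ t : ℤ, f.eval ((q : ℤ) * t + a) = g * F.eval t := by
    intro t
    have := congrArg (eval t) hF
    simpa [eval_comp] using this
  refine ⟨F, g, hgq, heval, ?_, ?_, ?_, ?_⟩
  · have h1 := irreducible_comp_linear _ hirr (q : ℚ) (a : ℚ) (by exact_mod_cast hqpos.ne')
    have h2 : (f.map (Int.castRingHom ℚ)).comp (C (q : ℚ) * X + C (a : ℚ)) =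
        C (g : ℚ) * F.map (Int.castRingHom ℚ) := by
      have := congrArg (Polynomial.map (Int.castRingHom ℚ)) hF
      simpa [Polynomial.map_comp] using this
    rw [h2] at h1
    have hu : IsUnit (C (g : ℚ)) := isUnit_C.2 (isUnit_iff_ne_zero.2 (by exact_mod_cast hg0))
    exact (irreducible_isUnit_mul hu).1 h1
  · have h1 := congrArg natDegree hF
    rw [natDegree_comp, natDegree_C_mul hg0, natDegree_linear hq0, mul_one] at h1
    exact h1.symm
  · intro p hp t hpt
    have hpp : p.Prime := (mem_primesLe.1 hp).2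
    have hpZ : Prime (p : ℤ) := Nat.prime_iff_prime_int.1 hpp
    obtain ⟨q1, hq1⟩ := hgq
    have hpq1 : (p : ℤ) ∣ q1 := by
      by_contra hn
      have hcop : IsCoprime ((p : ℤ) ^ K) q1 :=
        IsCoprime.pow_left ((Prime.coprime_iff_not_dvd hpZ).2 hn)
      have h1 : ((p : ℤ) ^ K) ∣ g * q1 := by
        rw [← hq1]
        exact_mod_cast pow_dvd_Qmod hp
      exact ha p hp ((hcop.dvd_of_dvd_mul_right h1).trans hgf)
    have hpgq : (p : ℤ) * g ∣ (q : ℤ) := by
      rw [hq1, mul_comm]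
      exact mul_dvd_mul_left g hpq1
    have hpgf : (p : ℤ) * g ∣ f.eval ((q : ℤ) * t + a) := by
      rw [heval t, mul_comm]
      exact mul_dvd_mul_left g hpt
    have hpgfa : (p : ℤ) * g ∣ f.eval (a : ℤ) := by
      rw [add_comm] at hpgf
      exact (dvd_eval_add f (a : ℤ) (Dvd.dvd.mul_right hpgq t)).1 hpgf
    have h2 : (p : ℤ) * g ∣ g := Int.dvd_coe_gcd hpgfa hpgq
    have h3 : (p : ℤ) * g ∣ 1 * g := by simpa using h2
    have h4 : (p : ℤ) ∣ 1 := (mul_dvd_mul_iff_right hg0).1 h3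
    exact hpZ.not_isUnit (isUnit_of_dvd_one h4)
  · refine ⟨C (q : ℤ) * C g * U.comp (C (q : ℤ) * X + C (a : ℤ)),
      C g * V.comp (C (q : ℤ) * X + C (a : ℤ)), ?_⟩
    have h1 := congrArg (fun P => P.comp (C (q : ℤ) * X + C (a : ℤ))) hB
    simp only [add_comp, mul_comp, C_comp] at h1
    have h2 := congrArg derivative hF
    rw [derivative_comp] at h2
    simp only [derivative_add, derivative_mul, derivative_C, derivative_X, zero_mul, mul_one,
      zero_add, add_zero] at h2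
    rw [C_mul, ← h1]
    calc C (q : ℤ) * C g * U.comp (C (q : ℤ) * X + C (a : ℤ)) * F +
          C g * V.comp (C (q : ℤ) * X + C (a : ℤ)) * derivative F
        = C (q : ℤ) * (U.comp (C (q : ℤ) * X + C (a : ℤ)) * (C g * F)) +
          V.comp (C (q : ℤ) * X + C (a : ℤ)) * (C g * derivative F) := by ring
      _ = _ := by rw [← hF, ← h2]; ring

end Vale.Agent.Lib.P018
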